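import Crest.Agent.R177.DefsPat

/-!
Non-backtracking walks given by functions; uniqueness of short non-backtracking walks.
-/

set_option autoImplicit false

namespace Crest.Agent.R177.CoincideAux

open Crest.Agent.R177

variable {V E T : Type} {Γ : LG V E T}

/-- `f 0, …, f (n-1)` is a non-backtracking walk through the vertices `v 0, …, v n` -/
structure FW (Γ : LG V E T) (f : ℕ → E × Bool) (v : ℕ → V) (n : ℕ) : Prop where
  st : ∀ k, k < n → Γ.st (f k) = v k
  en : ∀ k, k < n → Γ.en (f k) = v (k + 1)
  nb : ∀ k, k + 1 < n → f (k + 1) ≠ flp (f k)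

theorem FW.shift {f : ℕ → E × Bool} {v : ℕ → V} {n : ℕ} (h : FW Γ f v (n + 1)) :
    FW Γ (fun k => f (k + 1)) (fun k => v (k + 1)) n where
  st k hk := h.st (k + 1) (by omega)
  en k hk := h.en (k + 1) (by omega)
  nb k hk := h.nb (k + 1) (by omega)

theorem FW.isWalk {f : ℕ → E × Bool} {v : ℕ → V} {n : ℕ} (h : FW Γ f v n) :
    Γ.IsWalk (v 0) ((List.range n).map f) (v n) := by
  induction n generalizing f v with
  | zero => simp [LG.IsWalk]
  | succ n ih =>
    rw [List.range_succ_eq_map, List.map_cons, List.map_map]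
    refine ⟨h.st 0 (by omega), ?_⟩
    rw [h.en 0 (by omega)]
    exact ih h.shift

theorem FW.nb_list {f : ℕ → E × Bool} {v : ℕ → V} {n : ℕ} (h : FW Γ f v n) :
    NB ((List.range n).map f) := by
  unfold NB
  rw [List.isChain_iff_getElem]
  intro i hi
  simp only [List.length_map, List.length_range] at hi
  simp only [List.getElem_map, List.getElem_range]
  exact h.nb i hi

theorem FW.closed {f : ℕ → E × Bool} {v : ℕ → V} {n g : ℕ} (h : FW Γ f v n)
    (hg : Γ.GirthGt g) (hv : v 0 = v n) (hn : n ≤ g) : n = 0 := by
  by_contra h0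
  have hw := h.isWalk
  rw [← hv] at hw
  have := hg (v 0) _ hw h.nb_list (by simp [h0])
  simp only [List.length_map, List.length_range] at this
  omega

theorem FW.rev {f : ℕ → E × Bool} {v : ℕ → V} {n : ℕ} (h : FW Γ f v n) :
    FW Γ (fun k => flp (f (n - 1 - k))) (fun k => v (n - k)) n where
  st k hk := by
    rw [LG.st_flp, h.en _ (by omega)]
    congr 1
    omega
  en k hk := by
    rw [LG.en_flp, h.st _ (by omega)]
    congr 1
    omega
  nb k hk := by
    have := h.nb (n - 1 - (k + 1)) (by omega)
    have e : n - 1 - (k + 1) + 1 = n - 1 - k := by omega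
    rw [e] at this
    intro h'
    apply this
    rw [h', flp_flp]

theorem FW.append {f f' : ℕ → E × Bool} {v v' : ℕ → V} {n n' : ℕ} (h : FW Γ f v n)
    (h' : FW Γ f' v' n') (hv : v n = v' 0) (hc : f' 0 ≠ flp (f (n - 1))) :
    FW Γ (fun k => if k < n then f k else f' (k - n))
      (fun k => if k < n then v k else v' (k - n)) (n + n') where
  st k hk := by
    by_cases h1 : k < n
    · simp only [h1, if_true]; exact h.st k h1
    · simp only [h1, if_false]; exact h'.st _ (by omega)
  en k hk := by
    by_cases h1 : k < n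
    · by_cases h2 : k + 1 < n
      · simp only [h1, h2, if_true]; exact h.en k h1
      · have e : k + 1 = n := by omega
        simp only [h1, h2, if_true, if_false]
        rw [h.en k h1, e, hv, Nat.sub_self]
    · have h2 : ¬ k + 1 < n := by omega
      simp only [h1, h2, if_false]
      rw [h'.en _ (by omega)]
      congr 1
      omega
  nb k hk := by
    by_cases h1 : k < n
    · by_cases h2 : k + 1 < n
      · simp only [h1, h2, if_true]; exact h.nb k h2
      · have e : k + 1 - n = 0 := by omega
        have e' : n - 1 = k := by omega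
        simp only [h1, h2, if_true, if_false]
        rw [e, ← e']
        exact hc
    · have h2 : ¬ k + 1 < n := by omega
      simp only [h1, h2, if_false]
      have e : k + 1 - n = k - n + 1 := by omega
      rw [e]
      exact h'.nb _ (by omega)

/-- two short non-backtracking walks with the same ends agree -/
theorem FW.unique {g : ℕ} (hg : Γ.GirthGt g) {n : ℕ} :
    ∀ {f f' : ℕ → E × Bool} {v v' : ℕ → V} {n' : ℕ}, FW Γ f v n → FW Γ f' v' n' →
      v 0 = v' 0 → v n = v' n' → n + n' ≤ g → n = n' ∧ ∀ k, k ≤ n → v k = v' k := by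
  induction n with
  | zero =>
    intro f f' v v' n' _ h' h0 h1 hle
    have := h'.closed hg (by rw [← h0, ← h1]) (by omega)
    refine ⟨this.symm, fun k hk => ?_⟩
    have : k = 0 := by omega
    rw [this, h0]
  | succ n ih =>
    intro f f' v v' n' h h' h0 h1 hle
    rcases n' with _ | m
    · have := h.closed hg (by rw [h0, h1]) (by omega)
      omega
    · by_cases hf : f 0 = f' 0
      · have e1 : v 1 = v' 1 := by
          rw [← h.en 0 (by omega), ← h'.en 0 (by omega), hf]
        obtain ⟨a, b⟩ := ih h.shift h'.shift e1 h1 (by omega)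
        refine ⟨by omega, fun k hk => ?_⟩
        rcases k with _ | k
        · exact h0
        · exact b k (by omega)
      · have hA := h.rev.append h' (by simpa using h0) (by
          have e : n + 1 - 1 - (n + 1 - 1) = 0 := by omega
          simp only [e, flp_flp]
          exact fun e => hf e.symm)
        have := hA.closed hg (by
          have e : ¬ (n + 1 + (m + 1) < n + 1) := by omega
          simp only [Nat.zero_lt_succ, if_true, Nat.sub_zero, e, if_false,
            Nat.add_sub_cancel_left]
          exact h1) hle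
        omega

/-- a stretch of a walk of a configuration -/
theorem config_fw {z : V} {K B L0 M : ℕ} (c : Config Γ z K B L0 M) (p : Fin K) (i n : ℕ)
    (h : i + n ≤ c.len p) :
    FW Γ (fun k => c.ed (p, i + k)) (fun k => c.vtx (p, i + k)) n where
  st k hk := (c.vtx_st (x := (p, i + k)) (by simp only; omega)).symm
  en k hk := (c.vtx_en (x := (p, i + k)) (by simp only; omega)).symm
  nb k hk := c.nb p (i + k) (by omega)

/-- parallel stretches -/
theorem par {z : V} {K B L0 M : ℕ} (c : Config Γ z K B L0 M) {b : ℕ}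
    (hg : Γ.GirthGt (2 * b)) {p p' : Fin K} {i j i' j' : ℕ} (hij : i ≤ j) (hij' : i' ≤ j')
    (hj : j ≤ c.len p) (hj' : j' ≤ c.len p') (hb : j ≤ i + b) (hb' : j' ≤ i' + b)
    (e0 : c.vtx (p, i) = c.vtx (p', i')) (e1 : c.vtx (p, j) = c.vtx (p', j')) :
    j - i = j' - i' ∧ ∀ k, k ≤ j - i → c.vtx (p, i + k) = c.vtx (p', i' + k) := by
  have h := config_fw c p i (j - i) (by omega)
  have h' := config_fw c p' i' (j' - i') (by omega)
  refine FW.unique hg h h' e0 ?_ (by omega)
  have a : i + (j - i) = j := by omega
  have a' : i' + (j' - i') = j' := by omega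
  simp only [a, a']
  exact e1

/-- antiparallel stretches -/
theorem antipar {z : V} {K B L0 M : ℕ} (c : Config Γ z K B L0 M) {b : ℕ}
    (hg : Γ.GirthGt (2 * b)) {p p' : Fin K} {i j i' j' : ℕ} (hij : i ≤ j) (hij' : j' ≤ i')
    (hj : j ≤ c.len p) (hj' : i' ≤ c.len p') (hb : j ≤ i + b) (hb' : i' ≤ j' + b)
    (e0 : c.vtx (p, i) = c.vtx (p', i')) (e1 : c.vtx (p, j) = c.vtx (p', j')) :
    j - i = i' - j' ∧ ∀ k, k ≤ j - i → c.vtx (p, i + k) = c.vtx (p', i' - k) := by
  have h := config_fw c p i (j - i) (by omega)
  have h' := (config_fw c p' j' (i' - j') (by omega)).rev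
  have a : i + (j - i) = j := by omega
  have a' : j' + (i' - j') = i' := by omega
  obtain ⟨h1, h2⟩ := FW.unique hg h h' (by simpa [a'] using e0) (by simpa [a] using e1)
    (by omega)
  refine ⟨h1, fun k hk => ?_⟩
  have := h2 k hk
  have a'' : j' + (i' - j' - k) = i' - k := by omega
  simpa only [a''] using this

/-- short stretches are injective on vertices -/
theorem inj {z : V} {K B L0 M : ℕ} (c : Config Γ z K B L0 M) {b : ℕ}
    (hg : Γ.GirthGt (2 * b)) {p : Fin K} {a i j : ℕ} (hi : i ≤ c.len p) (hj : j ≤ c.len p)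
    (h1 : a ≤ i) (h2 : i ≤ a + b) (h3 : a ≤ j) (h4 : j ≤ a + b)
    (e : c.vtx (p, i) = c.vtx (p, j)) : i = j := by
  rcases le_total i j with h | h
  · have := (par c hg (p := p) (p' := p) h (le_refl j) hj hj (by omega) (by omega) e rfl).1
    omega
  · have := (par c hg (p := p) (p' := p) h (le_refl i) hi hi (by omega) (by omega) e.symm rfl).1
    omega

end Crest.Agent.R177.CoincideAux
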